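import Mathlib
import Vale.Agent.P043.T2.Defs

/-! # P043 in the plane, track B: definitions

The tile `Om t` has 420 unit rows: the rows `R j` of type `false` are even, the rows of type `true`
are odd.  The row `j` carries the set `E t j`, which is `[f/M, (f+1)/M)` with the initial piece of
length `R j * t` moved by `26901/M`, `M = 44100`.  Every statement below is proved in its own
file. -/

namespace Vale.Agent.P043.B4

open MeasureTheory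
open Vale.Agent.P043.T2 (K kap Ix row sh s0 s1 StFin Tiles2 Per2 StXfer)

/-- Index set of the tile (420 rows). -/
abbrev J : Type := Bool × Ix

/-- Integer row of the tile. -/
def R (j : J) : ℤ := 2 * row j.1 j.2 + (if j.1 then 1 else 0)

/-- Integer representative of the horizontal position. -/
def f (j : J) : ℤ :=
  if j.1 then 11025 * (j.2.1 : ℕ) + 34300 * (j.2.2.1 : ℕ)
    else 15876 * (j.2.2.2.1 : ℕ) + 27000 * (j.2.2.2.2 : ℕ)

/-- The subset of the line in the row `j`. -/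
noncomputable def E (t : ℝ) (j : J) : Set ℝ :=
  Set.Ico ((f j : ℝ) / 44100 + R j * t) (((f j : ℝ) + 1) / 44100) ∪
    Set.Ico (((f j : ℝ) + 26901) / 44100) (((f j : ℝ) + 26901) / 44100 + R j * t)

/-- The tile. -/
def Om (t : ℝ) : Set (ℝ × ℝ) :=
  {p | ∃ j : J, p.1 ∈ E t j ∧ p.2 - (R j : ℝ) ∈ Set.Ico (0 : ℝ) 1}

/-- admissible parameter -/
def Good (t : ℝ) : Prop := Irrational t ∧ 0 < t ∧ t * 4000000 < 1 / 44100

/-- The rows of a periodic tiling: exact tiling of every row, for all `x`. -/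
structure Rows (t : ℝ) (T : ℤ → Set ℝ) (l s : ℝ) (p : ℕ) : Prop where
  l_pos : 0 < l
  p_pos : 0 < p
  hor : ∀ r b, b + l ∈ T r ↔ b ∈ T r
  ver : ∀ r b, b + s ∈ T (r + p) ↔ b ∈ T r
  fin : ∀ r, (T r ∩ Set.Ico 0 l).Finite
  til : ∀ (x : ℝ) (n : ℤ), ∃! q : ℝ × J, q.1 ∈ T (n - R q.2) ∧ x - q.1 ∈ E t q.2

/-! ## Existence -/

/-- (B-TIL) exact tiling of `R x Z`. -/
def StTil : Prop :=
  StFin → ∀ t : ℝ, Good t →
    ∃ A : Set (ℝ × ℤ), ∀ (x : ℝ) (n : ℤ),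
      ∃! q : (ℝ × ℤ) × J, q.1 ∈ A ∧ q.1.2 + R q.2 = n ∧ x - q.1.1 ∈ E t q.2

/-- (B-PL) from rows to the plane. -/
def StPl : Prop :=
  ∀ t : ℝ, (∃ A : Set (ℝ × ℤ), ∀ (x : ℝ) (n : ℤ),
      ∃! q : (ℝ × ℤ) × J, q.1 ∈ A ∧ q.1.2 + R q.2 = n ∧ x - q.1.1 ∈ E t q.2) →
    ∃ A : Set (ℝ × ℝ), Tiles2 (Om t) A

/-- (B-OM) the tile is bounded, measurable, of positive measure. -/
def StOm : Prop :=
  ∀ t : ℝ, Good t → Bornology.IsBounded (Om t) ∧ MeasurableSet (Om t) ∧ 0 < volume (Om t)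

/-- (B-T) existence of the parameter. -/
def StT : Prop := ∃ t : ℝ, Good t

/-! ## Non-periodicity -/

/-- (B-UNIT) unit intervals which tile the line. -/
def StUnit : Prop :=
  ∀ (ι : Type) (pos : ι → ℝ), (∀ᵐ y : ℝ, ∃! i, y - pos i ∈ Set.Ico (0 : ℝ) 1) →
    (∀ i j, ∃ n : ℤ, pos i = pos j + n) ∧ ∀ i, ∀ n : ℤ, ∃! j, pos j = pos i + n

/-- (B-FUB) almost every vertical line. -/
def StFub : Prop :=
  ∀ t : ℝ, Good t → ∀ A : Set (ℝ × ℝ), Tiles2 (Om t) A →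
    ∀ᵐ x : ℝ, ∀ᵐ y : ℝ, ∃! q : (ℝ × ℝ) × J,
      q.1 ∈ A ∧ x - q.1.1 ∈ E t q.2 ∧ y - (q.1.2 + R q.2) ∈ Set.Ico (0 : ℝ) 1

/-- (B-PSI) the functional on the heights. -/
def StPsi : Prop :=
  ∀ x1 y1 x2 y2 : ℝ, x1 * y2 - y1 * x2 ≠ 0 →
    ∃ ψ : ℝ →ₗ[ℚ] ℚ, ψ 1 = 1 ∧ x1 * (ψ y2 : ℝ) - (ψ y1 : ℝ) * x2 ≠ 0

/-- (B-PI) the functional on the positions. -/
def StPi : Prop := ∀ t : ℝ, Irrational t → ∃ π : ℝ →ₗ[ℚ] ℚ, π 1 = 0 ∧ π t = 1

/-- (B-ROW0) the rows, almost everywhere; may assume StUnit, StFub, StPsi. -/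
def StRow0 : Prop :=
  ∀ t : ℝ, Good t → ∀ A : Set (ℝ × ℝ), Tiles2 (Om t) A → Per2 A →
    ∃ (T : ℤ → Set ℝ) (l s : ℝ) (p : ℕ), 0 < l ∧ 0 < p ∧
      (∀ r b, b + l ∈ T r ↔ b ∈ T r) ∧ (∀ r b, b + s ∈ T (r + p) ↔ b ∈ T r) ∧
      ∀ᵐ x : ℝ, ∀ n : ℤ, ∃! q : ℝ × J, q.1 ∈ T (n - R q.2) ∧ x - q.1 ∈ E t q.2

/-- (B-ALL) from almost every `x` to every `x`. -/
def StAll : Prop :=
  ∀ t : ℝ, Good t → ∀ (T : ℤ → Set ℝ) (l s : ℝ) (p : ℕ), 0 < l → 0 < p →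
      (∀ r b, b + l ∈ T r ↔ b ∈ T r) → (∀ r b, b + s ∈ T (r + p) ↔ b ∈ T r) →
      (∀ᵐ x : ℝ, ∀ n : ℤ, ∃! q : ℝ × J, q.1 ∈ T (n - R q.2) ∧ x - q.1 ∈ E t q.2) →
      Rows t T l s p

/-- (B-MEAS) counting the translates in a row over one period. -/
def StMeas : Prop :=
  ∀ t : ℝ, Good t → ∀ T l s p, Rows t T l s p → ∀ c : ℝ, 0 < c →
    (∀ r b, b + c ∈ T r ↔ b ∈ T r) →
      ∀ n, ∑ j : J, ((T (n - R j) ∩ Set.Ico 0 c).ncard : ℝ) = 44100 * c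

/-- (B-RAT) the horizontal period is rational; may assume StMeas. -/
def StRat : Prop :=
  ∀ t : ℝ, Good t → ∀ T l s p, Rows t T l s p → ∃ k : ℕ, 0 < k ∧ l * 44100 = k

open Classical in
/-- indicator of the rows -/
noncomputable def chi (T : ℤ → Set ℝ) (r : ℤ) (x : ℝ) : ℝ := if x ∈ T r then 1 else 0

/-- (B-JUMP) the jump equation. -/
def StJump : Prop :=
  ∀ t : ℝ, Good t → ∀ T l s p, Rows t T l s p → ∀ (n : ℤ) (x : ℝ),
    ∑ j : J, (chi T (n - R j) (x - ((f j : ℝ) / 44100 + R j * t))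
      - chi T (n - R j) (x - (((f j : ℝ) + 26901) / 44100 + R j * t))
      + chi T (n - R j) (x - ((f j : ℝ) + 26901) / 44100)
      - chi T (n - R j) (x - ((f j : ℝ) + 1) / 44100)) = 0

/-- (B-LEVEL) one of the two periods; may assume StPi, StRat, StJump. -/
def StLevel : Prop :=
  ∀ t : ℝ, Good t → ∀ T l s p, Rows t T l s p →
    (∀ r b, b + 26901 / 44100 ∈ T r ↔ b ∈ T r) ∨ (∀ r b, b + 26900 / 44100 ∈ T r ↔ b ∈ T r)

/-- (B-ROWCOUNT) counting the rows with a period `c / 44100`; may assume StMeas. -/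
def StRowCount : Prop :=
  ∀ t : ℝ, Good t → ∀ T l s p, Rows t T l s p → ∀ c : ℕ, 0 < c →
    (∀ r b, b + (c : ℝ) / 44100 ∈ T r ↔ b ∈ T r) →
      ∃ N : ℤ → ℤ, (∀ n, N (n + p) = N n) ∧ ∀ n, ∑ j : J, N (n - R j) = c

/-- (B-COUNT) divisibility. -/
def StCount : Prop :=
  ∀ (p : ℕ) (N : ℤ → ℤ) (m : ℤ), 0 < p → (∀ n, N (n + p) = N n) →
    (∀ n, ∑ j : J, N (n - R j) = m) → (5 : ℤ) ∣ m ∧ (7 : ℤ) ∣ m

/-- (B-NON) no periodic tiling. -/
def StNon : Prop :=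
  ∀ t : ℝ, Good t → ∀ A : Set (ℝ × ℝ), Tiles2 (Om t) A → ¬ Per2 A

theorem non_of (hRow0 : StRow0) (hAll : StAll) (hLevel : StLevel) (hRC : StRowCount)
    (hC : StCount) : StNon := by
  intro t ht A hA hper
  obtain ⟨T, l, s, p, hl, hp, h1, h2, h3⟩ := hRow0 t ht A hA hper
  have hR := hAll t ht T l s p hl hp h1 h2 h3
  rcases hLevel t ht T l s p hR with h4 | h4
  · obtain ⟨N, hN1, hN2⟩ := hRC t ht T l s p hR 26901 (by norm_num) (by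
      intro r b; have := h4 r b; norm_num at this ⊢; exact this)
    have := (hC p N _ hp hN1 hN2).1
    norm_num at this
  · obtain ⟨N, hN1, hN2⟩ := hRC t ht T l s p hR 26900 (by norm_num) (by
      intro r b; have := h4 r b; norm_num at this ⊢; exact this)
    have := (hC p N _ hp hN1 hN2).2
    norm_num at this

theorem main_of (hFin : StFin) (hXfer : StXfer) (hTil : StTil) (hPl : StPl) (hOm : StOm)
    (hT : StT) (hNon : StNon) :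
    ∃ O : Set (Fin 2 → ℝ), Bornology.IsBounded O ∧ MeasurableSet O ∧ 0 < volume O ∧
      (∃ A : Set (Fin 2 → ℝ), Vale.Agent.P043.Eu.TilesAE O A) ∧
        ∀ A : Set (Fin 2 → ℝ), Vale.Agent.P043.Eu.TilesAE O A →
          ¬ Vale.Agent.P043.Eu.LatticePeriodic A := by
  obtain ⟨t, ht⟩ := hT
  obtain ⟨h1, h2, h3⟩ := hOm t ht
  exact hXfer ⟨Om t, h1, h2, h3, hPl t (hTil hFin t ht), hNon t ht⟩

end Vale.Agent.P043.B4
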