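import Vale.Agent.P043.B4.Defs

/-! # P043 track B, row PL: from rows to the plane -/

namespace Vale.Agent.P043.B4

open MeasureTheory
open Vale.Agent.P043.T2 (Ix Tiles2)

theorem pl_row_eq_floor {y : ℝ} {m k : ℤ} (h : y - (m : ℝ) - (k : ℝ) ∈ Set.Ico (0 : ℝ) 1) :
    m + k = ⌊y⌋ := by
  symm
  rw [Int.floor_eq_iff]
  push_cast
  constructor <;> linarith [h.1, h.2]

theorem st_pl : StPl := by
  intro t ⟨A, hA⟩
  refine ⟨(fun a : ℝ × ℤ => (a.1, (a.2 : ℝ))) '' A, ?_, ?_⟩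
  · refine Filter.Eventually.of_forall fun p => ?_
    obtain ⟨q, ⟨hq1, hq2, hq3⟩, -⟩ := hA p.1 ⌊p.2⌋
    refine ⟨(q.1.1, (q.1.2 : ℝ)), ⟨q.1, hq1, rfl⟩, q.2, ?_, ?_⟩
    · exact hq3
    · have h1 : ((q.1.2 : ℝ)) + (R q.2 : ℝ) = (⌊p.2⌋ : ℝ) := by exact_mod_cast hq2
      have h2 := Int.floor_le p.2
      have h3 := Int.lt_floor_add_one p.2
      show p.2 - (q.1.2 : ℝ) - (R q.2 : ℝ) ∈ Set.Ico (0 : ℝ) 1
      constructor <;> linarith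
  · rintro _ ⟨a, ha, rfl⟩ _ ⟨b, hb, rfl⟩ hab
    refine Filter.Eventually.of_forall fun p => ?_
    rintro ⟨⟨i, hi1, hi2⟩, ⟨j, hj1, hj2⟩⟩
    apply hab
    have e1 : a.2 + R i = ⌊p.2⌋ := pl_row_eq_floor hi2
    have e2 : b.2 + R j = ⌊p.2⌋ := pl_row_eq_floor hj2
    have h := (hA p.1 ⌊p.2⌋).unique (y₁ := (a, i)) (y₂ := (b, j)) ⟨ha, e1, hi1⟩ ⟨hb, e2, hj1⟩
    have h' : a = b := congrArg Prod.fst h
    rw [h']

end Vale.Agent.P043.B4
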